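import Crest.Agent.R339.D2.Defs

/-! # Row 339, block D2/Sub: operator estimates at one label -/

set_option autoImplicit false
set_option linter.unusedSectionVars false
open MeasureTheory ProbabilityTheory Filter Topology Complex
open Crest.MathPhysics.SpinGlass

namespace Crest.Agent.R339
variable {E K : Type} [NormedAddCommGroup E] [InnerProductSpace ℂ E]
  [NormedAddCommGroup K] [InnerProductSpace ℂ K] [CompleteSpace K]
namespace Model
variable {M : Model E K}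

theorem sub_move {U : K →L[ℂ] K} (hU : U ∈ unitary (K →L[ℂ] K)) {A : K →L[ℂ] K} (h : Commute A U) (y : K) :
    ‖A (U y) - U y‖ = ‖A y - y‖ := by
  rw [show A (U y) = U (A y) from congrArg (fun B : K →L[ℂ] K => B y) h.eq, ← map_sub, unit_norm hU]

theorem sub_sand_eq {W A B : K →L[ℂ] K} (h : star W * A * W = B) (U : K →L[ℂ] K) (x : K) :
    star (W * U) (A ((W * U) x)) = star U (B (U x)) := by
  subst h; simp only [star_mul, ContinuousLinearMap.mul_apply]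

theorem sub_im_self (g : E) : (inner ℂ g g : ℂ).im = 0 := inner_self_im (𝕜 := ℂ) g

theorem sub_W_Ω {U : K →L[ℂ] K} (hU : U ∈ unitary (K →L[ℂ] K)) {h : E} (hc : Commute (M.W h) U) :
    ‖M.W h (U M.Ω) - U M.Ω‖ ≤ ‖h‖ := by
  rw [sub_move hU hc]; simpa using M.tame_Ω h

theorem sub_W_WZ (h g : E) (x : K) : ‖M.W h (M.WZ g x) - M.WZ g x‖ ≤ ‖M.W h x - x‖ + 2 * (‖h‖ * ‖g‖) * ‖x‖ := by
  have e1 : M.W h (M.WZ g x) = M.WZ g (M.W h (M.RZ (2 * (inner ℂ h g : ℂ).im) x)) :=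
    congrArg (fun A : K →L[ℂ] K => A x) (M.W_WZ h g)
  have h2 : ‖M.RZ (2 * (inner ℂ h g : ℂ).im) - 1‖ ≤ 2 * (‖h‖ * ‖g‖) := by
    refine (M.norm_RZ_sub_one _).trans ?_
    rw [abs_mul, abs_two]
    exact mul_le_mul_of_nonneg_left (a6_im h g) zero_le_two
  rw [e1, ← map_sub, unit_norm (M.WZ_mem g)]
  refine (norm_sub_le_norm_sub_add_norm_sub _ (M.W h x) _).trans ?_
  rw [← map_sub, unit_norm (M.W_mem h), add_comm]
  exact add_le_add le_rfl (((M.RZ _ - 1).le_opNorm x).trans (mul_le_mul_of_nonneg_right h2 (norm_nonneg _)))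

theorem sub_W_WY (h g : E) (x : K) : ‖M.W h (M.WY g x) - M.WY g x‖ ≤ ‖M.W h x - x‖ + 2 * (‖h‖ * ‖g‖) * ‖x‖ := by
  have := sub_W_WZ (M := M) h g (M.RX (Real.pi / 4) x)
  rw [sub_move (M.RX_mem _) (M.a6_RX_W _ _), unit_norm (M.RX_mem _)] at this
  exact (sub_move (M.RX_mem _) (M.a6_RX_W _ _) _).trans_le this

theorem sub_W_med {T : K →L[ℂ] K} (hT : T ∈ unitary (K →L[ℂ] K)) {h D : E} (hc : Commute (M.W h) T)
    (hD : ‖D‖ ≤ 1 / 2) : ‖M.W h (M.WY D (T M.Ω)) - M.WY D (T M.Ω)‖ ≤ 2 * ‖h‖ := by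
  have h1 := sub_W_WY (M := M) h D (T M.Ω)
  rw [unit_norm hT, M.norm_Ω] at h1
  nlinarith [sub_W_Ω hT hc, norm_nonneg h]

/-- the overlap between the two mediator vectors -/
theorem med_overlap {T : K →L[ℂ] K} (hT : T ∈ unitary (K →L[ℂ] K)) {θ0 : ℂ} (h0 : ‖θ0‖ = 1)
    (hΩ : ‖T M.Ω - θ0 • M.Ω‖ ≤ 1 / 20) {D : E} (hD : ‖D‖ = 1 / 2) :
    (inner ℂ (M.psi (M.WY D * T)) (star T (M.Y (T M.Ω)))).im ≤ -(2 / 5) := by
  have hDD : M.WY D * M.WY D = M.WY (D + D) := by rw [M.WY_mul, sub_im_self]; simp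
  have e1 : star (M.WY D) * M.Z * M.WY D = M.Z * M.WY (D + D) := by
    rw [M.WY_star, ← M.Z_WY, mul_assoc, hDD]
  have e2 : M.psi (M.WY D * T) = star T (M.Z (M.WY (D + D) (T M.Ω))) := by
    rw [psi, sub_sand_eq e1, ContinuousLinearMap.mul_apply]
  set A := M.X * M.WY (D + D) with hA
  have hAu : A ∈ unitary (K →L[ℂ] K) := mul_mem M.X_mem (M.WY_mem _)
  have e3 : ∀ z : K, inner ℂ (M.Z (M.WY (D + D) z)) (M.Y z) = -I * inner ℂ (A z) z := fun z => by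
    have : M.Y (M.Z (M.WY (D + D) z)) = I • A z :=
      congrArg (fun B : K →L[ℂ] K => B (M.WY (D + D) z)) M.Y_Z_eq
    rw [← inner_star_left, M.Y_star, this, inner_smul_left, conj_I]
  have e4 : inner ℂ (A M.Ω) M.Ω = cexp (-((‖D + D‖ : ℂ) ^ 2 / 2)) := by
    have h1 : inner ℂ M.Ω (A M.Ω) = cexp (-((‖D + D‖ : ℂ) ^ 2 / 2)) := by
      have h2 : inner ℂ M.Ω (M.Y (M.sinW (D + D) M.Ω)) = 0 := by
        refine M.inner_even_odd M.X_Ω ?_
        have h3 : M.X (M.sinW (D + D) M.Ω) = M.sinW (D + D) M.Ω := by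
          simp only [sinW, ContinuousLinearMap.smul_apply, ContinuousLinearMap.sub_apply, map_smul, map_sub, M.X_WΩ]
        have h4 : M.X * M.Y = -(M.Y * M.X) := by rw [M.X_Y_eq, M.Y_X_eq, neg_smul, neg_neg]
        conv_rhs => rw [← h3]
        exact congrArg (fun B : K →L[ℂ] K => B (M.sinW (D + D) M.Ω)) h4
      rw [hA, ContinuousLinearMap.mul_apply, ← inner_star_left, M.X_star, M.X_Ω, M.WY_eq,
        ContinuousLinearMap.sub_apply, inner_sub_right, M.inner_Ω_cosW, ContinuousLinearMap.smul_apply,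
        inner_smul_right, ContinuousLinearMap.mul_apply, h2, mul_zero, sub_zero]
    rw [← inner_conj_symm, h1, ← exp_conj]; simp [map_ofNat]
  have hn : ‖D + D‖ = 1 := by rw [← two_smul ℝ D, norm_smul, hD]; norm_num
  have e5 : inner ℂ (A (θ0 • M.Ω)) (θ0 • M.Ω) = ((Real.exp (-(1 / 2)) : ℝ) : ℂ) := by
    rw [map_smul, inner_smul_left, inner_smul_right, ← mul_assoc, conj_mul', h0, e4, hn]; simp
  have h6 : ‖inner ℂ (A (T M.Ω)) (T M.Ω) - inner ℂ (A (θ0 • M.Ω)) (θ0 • M.Ω)‖ ≤ 1 / 10 := by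
    rw [show inner ℂ (A (T M.Ω)) (T M.Ω) - inner ℂ (A (θ0 • M.Ω)) (θ0 • M.Ω) =
      inner ℂ (A (T M.Ω)) (T M.Ω - θ0 • M.Ω) + inner ℂ (A (T M.Ω - θ0 • M.Ω)) (θ0 • M.Ω) by
        rw [map_sub, inner_sub_left, inner_sub_right]; ring]
    refine (norm_add_le _ _).trans ((add_le_add (norm_inner_le_norm _ _) (norm_inner_le_norm _ _)).trans ?_)
    rw [unit_norm hAu, unit_norm hAu, unit_norm hT, norm_smul, h0, M.norm_Ω]
    linarith
  rw [e2, unit_inner (Unitary.star_mem hT), e3]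
  have h7 := (abs_le.1 ((abs_re_le_norm _).trans h6)).1
  rw [sub_re, e5, ofReal_re] at h7
  have h8 := Real.add_one_le_exp (-(1 / 2))
  simp only [neg_mul, neg_im, I_mul_im]
  linarith

theorem med_Y {T : K →L[ℂ] K} (hT : T ∈ unitary (K →L[ℂ] K)) {θ : ℂ} (hθ : ‖θ‖ = 1) {D l : E} (hD : ‖D‖ ≤ 1 / 2)
    (hc : Commute (M.W (l + l)) T) :
    ‖star T (M.Y (T M.Ω)) - star (θ • (M.WZ l * (M.WY D * T))) (M.Y ((θ • (M.WZ l * (M.WY D * T))) M.Ω))‖ ≤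
      8 * ‖l‖ := by
  have hll : M.WZ l * M.WZ l = M.WZ (l + l) := by rw [M.WZ_mul, sub_im_self]; simp
  have e1 : star (M.WZ l) * M.Y * M.WZ l = M.Y * M.WZ (l + l) := by
    rw [M.WZ_star, ← M.Y_WZ, mul_assoc, hll]
  have e2 : star (θ • (M.WZ l * (M.WY D * T))) (M.Y ((θ • (M.WZ l * (M.WY D * T))) M.Ω)) =
      star (M.WY D * T) (M.Y (M.WZ (l + l) (M.WY D (T M.Ω)))) := by
    rw [star_smul, ContinuousLinearMap.smul_apply, ContinuousLinearMap.smul_apply, map_smul, map_smul, smul_smul,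
      star_def, conj_mul', hθ, sub_sand_eq e1]
    simp only [ofReal_one, one_pow, one_smul, ContinuousLinearMap.mul_apply]
  have e3 : star T (M.Y (T M.Ω)) = star (M.WY D * T) (M.Y (M.WY D (T M.Ω))) := by
    rw [star_mul, ContinuousLinearMap.mul_apply,
      show M.Y (M.WY D (T M.Ω)) = M.WY D (M.Y (T M.Ω)) from congrArg (fun A : K →L[ℂ] K => A (T M.Ω)) (M.Y_WY D).eq,
      unit_star_apply (M.WY_mem D)]
  rw [e2, e3, ← map_sub, ← map_sub, unit_norm (Unitary.star_mem (mul_mem (M.WY_mem D) hT)), unit_norm M.Y_mem, norm_sub_rev]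
  linarith [M.norm_WZ_sub_le (l + l) (M.WY D (T M.Ω)), sub_W_med hT hc hD, norm_add_le l l]

theorem med_back {T : K →L[ℂ] K} (hT : T ∈ unitary (K →L[ℂ] K)) {θ : ℂ} (hθ : ‖θ‖ = 1) {D D' l : E}
    (hD : ‖D‖ ≤ 1 / 2) (hc : Commute (M.W l) T) (hc' : Commute (M.W (D' + D)) T) :
    ∃ θ' : ℂ, ‖θ'‖ = 1 ∧ ‖(M.WY D' * (θ • (M.WZ l * (M.WY D * T)))) M.Ω - θ' • T M.Ω‖ ≤ 4 * ‖l‖ + 2 * ‖D' + D‖ := by
  refine ⟨θ * cexp (-(I * ((inner ℂ D' D).im : ℂ))), by rw [norm_mul, hθ, a6_exp_norm, mul_one], ?_⟩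
  have e1 : M.WY D' (M.WY D (T M.Ω)) = cexp (-(I * ((inner ℂ D' D).im : ℂ))) • M.WY (D' + D) (T M.Ω) :=
    congrArg (fun A : K →L[ℂ] K => A (T M.Ω)) (M.WY_mul D' D)
  simp only [ContinuousLinearMap.mul_apply, ContinuousLinearMap.smul_apply, map_smul]
  rw [mul_smul, ← smul_sub, norm_smul, hθ, one_mul]
  refine (norm_sub_le_norm_sub_add_norm_sub _ (M.WY D' (M.WY D (T M.Ω))) _).trans ?_
  rw [← map_sub, unit_norm (M.WY_mem _), e1, ← smul_sub, norm_smul, a6_exp_norm, one_mul]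
  linarith [M.norm_WZ_sub_le l (M.WY D (T M.Ω)), sub_W_med hT hc hD, M.norm_WY_sub_le (D' + D) (T M.Ω),
    sub_W_Ω hT hc']

/-- the algebra at a sender label -/
structure Site (M : Model E K) (m : K →L[ℂ] K) (e x l : E) : Prop where
  ms : star m = m
  mZ : Commute M.Z m
  me : Commute (M.W e) m
  mx : Commute (M.W x) m
  ml : Commute (M.W l) m
  ex : (inner ℂ e x).im = 0
  xl : (inner ℂ x l).im = 0
  el : 2 * (inner ℂ e l).im = Real.pi / 2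

theorem sub_neg {T : K →L[ℂ] K} {g : E} (h : Commute (M.W g) T) : Commute (M.W (-g)) T := by
  have h1 := Unitary.mem_iff.1 (M.W_mem g)
  rw [M.W_star] at h1
  calc M.W (-g) * T = M.W (-g) * T * (M.W g * M.W (-g)) := by rw [h1.2, mul_one]
    _ = M.W (-g) * M.W g * T * M.W (-g) := by rw [mul_assoc _ (M.W g), h.eq]; simp only [mul_assoc]
    _ = _ := by rw [h1.1, one_mul]

theorem sub_cos {T : K →L[ℂ] K} {g : E} (h : Commute (M.W g) T) : Commute (M.cosW g) T := M.cosW_commute h (sub_neg h)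
theorem sub_sin {T : K →L[ℂ] K} {g : E} (h : Commute (M.W g) T) : Commute (M.sinW g) T := M.sinW_commute h (sub_neg h)

variable {m : K →L[ℂ] K} {e x l : E}

theorem Site.conj (h : Site M m e x l) {S B : K →L[ℂ] K} (hB : Commute B (M.WZ l)) (c : ℂ) :
    star (M.WZ l) * (M.Z * (c • (m * S * B))) * M.WZ l = c • (M.Z * m * (star (M.WZ l) * S * M.WZ l) * B) := by
  have h1 : Commute (star (M.WZ l)) (M.Z * m) := by
    rw [M.WZ_star]
    exact (M.Z_WZ _).symm.mul_right (M.WZ_commute h.mZ (sub_neg h.ml) (sub_neg (sub_neg h.ml)))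
  rw [mul_smul_comm, mul_smul_comm, smul_mul_assoc]
  congr 1
  simp only [← mul_assoc]
  rw [mul_assoc _ B, hB.eq, mul_assoc (star (M.WZ l)) M.Z m, h1.eq]
  simp only [← mul_assoc]

theorem Site.ZZ (h : Site M m e x l) (A : K →L[ℂ] K) : M.Z * m * (M.Z * A) = m * A := by
  rw [h.mZ.eq, mul_assoc, ← mul_assoc M.Z, M.Z_Z, one_mul]

theorem Site.cs (h : Site M m e x l) : Commute (M.W e) (M.sinW x) := (sub_sin (M.W_commute h.ex).symm).symm
theorem Site.cc (h : Site M m e x l) : Commute (M.W e) (M.cosW x) := (sub_cos (M.W_commute h.ex).symm).symm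

theorem Site.conjF (h : Site M m e x l) (c : ℂ) :
    star (M.WZ l) * (M.Z * (c • (m * M.sinW e * M.sinW x))) * M.WZ l = c • (m * M.sinW x) * M.cosW e := by
  rw [h.conj (sub_sin (M.W_WZ_commute h.xl)), M.WZ_conj_sinW h.el, h.ZZ, mul_assoc, (sub_cos h.cs).eq,
    smul_mul_assoc, mul_assoc]

theorem Site.conj0 (h : Site M m e x l) (c : ℂ) :
    star (M.WZ l) * (M.Z * (c • (m * M.cosW e * M.sinW x))) * M.WZ l = -(c • (m * M.sinW x * M.sinW e)) := by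
  rw [h.conj (sub_sin (M.W_WZ_commute h.xl)), M.WZ_conj_cosW h.el, mul_neg, h.ZZ, neg_mul, mul_assoc,
    (sub_sin h.cs).eq, smul_neg, mul_assoc]

theorem Site.conj1 (h : Site M m e x l) (c : ℂ) :
    star (M.WZ l) * (M.Z * (c • (m * M.sinW e * M.cosW x))) * M.WZ l = c • (m * (M.cosW e * M.cosW x)) := by
  rw [h.conj (sub_cos (M.W_WZ_commute h.xl)), M.WZ_conj_sinW h.el, h.ZZ, mul_assoc]

theorem Site.G_star (h : Site M m e x l) (r : ℝ) : star ((r : ℂ) • (m * M.sinW x)) = (r : ℂ) • (m * M.sinW x) := by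
  rw [star_smul, star_mul, h.ms, M.sinW_star, (sub_sin h.mx).eq, star_def, conj_ofReal]

theorem Site.G_comm {T : K →L[ℂ] K} (c : ℂ) (h1 : Commute T m) (h2 : Commute (M.W x) T) :
    Commute T (c • (m * M.sinW x)) := (h1.mul_right (sub_sin h2).symm).smul_right c

theorem sub_app3 (A B : K →L[ℂ] K) {a b : ℝ} (hA : ‖A‖ ≤ a) (hB : ‖B‖ ≤ 1) {z : K} (hz : ‖z‖ ≤ b) (c : ℝ) :
    ‖(c : ℂ) • A (B z)‖ ≤ |c| * a * b := by
  rw [norm_smul, norm_real, Real.norm_eq_abs, mul_assoc]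
  exact mul_le_mul_of_nonneg_left ((A.le_opNorm _).trans (mul_le_mul hA ((a6_contr hB z).trans hz) (norm_nonneg _)
    ((norm_nonneg _).trans hA))) (abs_nonneg c)

theorem Site.ZF_star (h : Site M m e x l) (r : ℝ) :
    star (M.Z * ((r : ℂ) • (m * M.sinW e * M.sinW x))) = M.Z * ((r : ℂ) • (m * M.sinW e * M.sinW x)) ∧
    Commute M.Z (M.Z * ((r : ℂ) • (m * M.sinW e * M.sinW x))) := by
  have hZ : Commute M.Z ((r : ℂ) • (m * M.sinW e * M.sinW x)) :=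
    ((h.mZ.mul_right (sub_sin (M.Z_W e).symm).symm).mul_right (sub_sin (M.Z_W x).symm).symm).smul_right _
  refine ⟨?_, (Commute.refl _).mul_right hZ⟩
  rw [star_mul, M.Z_star, hZ.eq, star_smul, star_mul, star_mul, h.ms, M.sinW_star, M.sinW_star, star_def, conj_ofReal,
    (sub_sin h.me).eq, ((sub_sin h.mx).mul_right (sub_sin h.cs).symm).eq]

/-- the sender after copy, program, uncopy -/
theorem Site.root (h : Site M m e x l) {L : ℝ} (hm : ‖m‖ ≤ L) (r : ℝ) {U Pu : K →L[ℂ] K}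
    (hU : U ∈ unitary (K →L[ℂ] K)) (hUe : Commute (M.W e) U) {l' : E} (hUl : Commute (M.W (l' + l)) U)
    (hml : Commute (M.W (l' + l)) m) (hxl : (inner ℂ x (l' + l)).im = 0) {ω ε0 : ℝ}
    (hP : ‖Pu - eI (M.Z * ((r : ℂ) • (m * M.sinW e * M.sinW x)))‖ ≤ ω) {θ : ℂ} (hθ : ‖θ‖ = 1) {y z : K}
    (hz : ‖z - θ • Pu (M.WZ l (U y))‖ ≤ ω) (h1 : ‖M.W e y - y‖ ≤ ε0) (h2 : ‖M.W (l' + l) y - y‖ ≤ ε0) :
    ‖M.WZ l' z - ((θ * cexp (-(I * ((inner ℂ l' l).im : ℂ)))) • eI ((r : ℂ) • (m * M.sinW x))) (U y)‖ ≤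
      ω + ω * ‖y‖ + |r| * L * ε0 + 2 * ε0 := by
  have hG := h.G_star r
  have hGc : Commute (M.cosW e) ((r : ℂ) • (m * M.sinW x)) := sub_cos ((h.me.mul_right h.cs).smul_right _)
  have hGu := eI_mem hG
  have e1 : eI (M.Z * ((r : ℂ) • (m * M.sinW e * M.sinW x))) (M.WZ l (U y)) =
      M.WZ l (eI ((r : ℂ) • (m * M.sinW x) * M.cosW e) (U y)) := by
    rw [← h.conjF, ← eI_conj (M.WZ_mem l)]
    exact (unit_apply_star (M.WZ_mem l) _).symm
  have b1 : ‖Pu (M.WZ l (U y)) - M.WZ l (eI ((r : ℂ) • (m * M.sinW x) * M.cosW e) (U y))‖ ≤ ω * ‖y‖ := by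
    rw [← e1, ← ContinuousLinearMap.sub_apply]
    refine (ContinuousLinearMap.le_opNorm _ _).trans ?_
    rw [unit_norm (M.WZ_mem l), unit_norm hU]
    exact mul_le_mul_of_nonneg_right hP (norm_nonneg _)
  have b2 : ‖eI ((r : ℂ) • (m * M.sinW x) * M.cosW e) (U y) - eI ((r : ℂ) • (m * M.sinW x)) (U y)‖ ≤ |r| * L * ε0 := by
    refine (eI_duhamel (by rw [star_mul, hG, M.cosW_star, hGc.eq]) hG ((Commute.refl _).mul_left hGc) _).trans ?_
    rw [ContinuousLinearMap.mul_apply, ← map_sub]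
    refine sub_app3 m (M.sinW x) hm (M.norm_sinW x) ?_ r
    rw [sub_move hU (sub_cos hUe)]
    exact (M.norm_cosW_sub_le e y).trans h1
  have hWG : Commute (M.W (l' + l)) (eI ((r : ℂ) • (m * M.sinW x))) :=
    eI_commute (Site.G_comm _ hml (M.W_commute hxl))
  have b3 : ‖M.WZ (l' + l) (eI ((r : ℂ) • (m * M.sinW x)) (U y)) - eI ((r : ℂ) • (m * M.sinW x)) (U y)‖ ≤ 2 * ε0 := by
    refine (M.norm_WZ_sub_le _ _).trans ?_
    rw [sub_move hGu hWG, sub_move hU hUl]; linarith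
  have e2 : ∀ w, M.WZ l' (M.WZ l w) = cexp (-(I * ((inner ℂ l' l).im : ℂ))) • M.WZ (l' + l) w := fun w =>
    congrArg (fun A : K →L[ℂ] K => A w) (M.WZ_mul l' l)
  have t1 := norm_sub_le_norm_sub_add_norm_sub (M.WZ l' z) (M.WZ l' (θ • Pu (M.WZ l (U y))))
    (θ • M.WZ l' (M.WZ l (eI ((r : ℂ) • (m * M.sinW x)) (U y))))
  have t2 := norm_sub_le_norm_sub_add_norm_sub (Pu (M.WZ l (U y)))
    (M.WZ l (eI ((r : ℂ) • (m * M.sinW x) * M.cosW e) (U y))) (M.WZ l (eI ((r : ℂ) • (m * M.sinW x)) (U y)))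
  rw [← map_sub (M.WZ l), unit_norm (M.WZ_mem l)] at t2
  rw [← map_sub, unit_norm (M.WZ_mem l'), map_smul, ← smul_sub, ← map_sub, norm_smul, hθ,
    unit_norm (M.WZ_mem l')] at t1
  refine (norm_sub_le_norm_sub_add_norm_sub _ (θ • M.WZ l' (M.WZ l (eI ((r : ℂ) • (m * M.sinW x)) (U y)))) _).trans ?_
  rw [ContinuousLinearMap.smul_apply, mul_smul, ← smul_sub, norm_smul, hθ, e2, ← smul_sub, norm_smul, a6_exp_norm]
  rw [e2] at t1
  linarith

theorem sub_sand {U L L' : K →L[ℂ] K} (hU : U ∈ unitary (K →L[ℂ] K)) {ω : ℝ} (h : ‖L - L'‖ ≤ ω) :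
    ‖star U (L (U M.Ω)) - star U (L' (U M.Ω))‖ ≤ ω := by
  rw [← map_sub, unit_norm (Unitary.star_mem hU), ← ContinuousLinearMap.sub_apply]
  refine (ContinuousLinearMap.le_opNorm _ _).trans ?_
  rw [unit_norm hU, M.norm_Ω, mul_one]; exact h

/-- back-action on the mediators -/
theorem Site.back (h : Site M m e x l) {L : ℝ} (hm : ‖m‖ ≤ L) (c : ℝ) {U L0 : K →L[ℂ] K}
    (hU : U ∈ unitary (K →L[ℂ] K)) (hUe : Commute (M.W e) U) {ω : ℝ}
    (hL : ‖L0 - M.Z * ((c : ℂ) • (m * M.cosW e * M.sinW x))‖ ≤ ω) :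
    ‖star (M.WZ l * U) (L0 ((M.WZ l * U) M.Ω))‖ ≤ ω + |c| * L * ‖e‖ := by
  have h1 := sub_sand (M := M) (mul_mem (M.WZ_mem l) hU) hL
  have e1 : star (M.WZ l * U) ((M.Z * ((c : ℂ) • (m * M.cosW e * M.sinW x))) ((M.WZ l * U) M.Ω)) =
      star U (-((c : ℂ) • m (M.sinW x (M.sinW e (U M.Ω))))) := by
    rw [sub_sand_eq (h.conj0 c)]; rfl
  rw [e1] at h1
  refine (norm_le_norm_sub_add _ _).trans (add_le_add h1 ?_)
  rw [unit_norm (Unitary.star_mem hU), norm_neg]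
  exact sub_app3 m _ hm (M.norm_sinW x) ((M.norm_sinW_le e _).trans (sub_W_Ω hU hUe)) c

/-- the message -/
theorem Site.msg (h : Site M m e x l) {L : ℝ} (hm : ‖m‖ ≤ L) (c : ℝ) {U L1 : K →L[ℂ] K}
    (hU : U ∈ unitary (K →L[ℂ] K)) (hUe : Commute (M.W e) U) (hUm : Commute m U) {ω ε1 : ℝ}
    (hL : ‖L1 - M.Z * ((c : ℂ) • (m * M.sinW e * M.cosW x))‖ ≤ ω) (hx : ‖M.W x (U M.Ω) - U M.Ω‖ ≤ ε1) :
    ‖star (M.WZ l * U) (L1 ((M.WZ l * U) M.Ω)) - (c : ℂ) • m M.Ω‖ ≤ ω + |c| * L * (‖e‖ + ε1) := by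
  have h1 := sub_sand (M := M) (mul_mem (M.WZ_mem l) hU) hL
  have e1 : star (M.WZ l * U) ((M.Z * ((c : ℂ) • (m * M.sinW e * M.cosW x))) ((M.WZ l * U) M.Ω)) =
      star U ((c : ℂ) • m (M.cosW e (M.cosW x (U M.Ω)))) := by
    rw [sub_sand_eq (h.conj1 c)]; rfl
  rw [e1] at h1
  refine (norm_sub_le_norm_sub_add_norm_sub _ _ _).trans (add_le_add h1 ?_)
  have e2 : (c : ℂ) • m M.Ω = star U ((c : ℂ) • m (U M.Ω)) := by
    rw [show m (U M.Ω) = U (m M.Ω) from congrArg (fun A : K →L[ℂ] K => A M.Ω) hUm.eq, map_smul, unit_star_apply hU]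
  rw [e2, ← map_sub, unit_norm (Unitary.star_mem hU), ← smul_sub, ← map_sub]
  refine sub_app3 m 1 hm ContinuousLinearMap.norm_id_le ?_ c
  refine (norm_sub_le_norm_sub_add_norm_sub _ (M.cosW e (U M.Ω)) _).trans ?_
  rw [← map_sub, add_comm]
  exact add_le_add ((M.norm_cosW_sub_le e _).trans (sub_W_Ω hU hUe))
    ((a6_contr (M.norm_cosW e) _).trans ((M.norm_cosW_sub_le x _).trans hx))

/-- the Heisenberg vector of a sender is preserved -/
theorem sub_psi {A U U' Pu : K →L[ℂ] K} (hA : star A = A) (hZ : Commute M.Z A) (hU : U ∈ unitary (K →L[ℂ] K))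
    (hU' : U' ∈ unitary (K →L[ℂ] K)) {ω : ℝ} (hP : ‖Pu - eI A‖ ≤ ω) {θ : ℂ} (hθ : ‖θ‖ = 1)
    (h1 : ‖U' M.Ω - θ • Pu (U M.Ω)‖ ≤ ω) (h2 : ‖U' (M.psi U) - θ • Pu (U (M.psi U))‖ ≤ ω) :
    ‖M.psi U' - M.psi U‖ ≤ 4 * ω := by
  have e1 : M.psi (θ • (eI A * U)) = M.psi U := by
    rw [M.psi_smul hθ, M.psi_mul_of_commute (eI_mem hA) (eI_commute hZ)]
  have h3 := M.psi_close hU' (unit_smul (mul_mem (eI_mem hA) hU) hθ)
  have key : ∀ y, ‖y‖ = 1 → ‖U' y - θ • Pu (U y)‖ ≤ ω → ‖U' y - (θ • (eI A * U)) y‖ ≤ 2 * ω := fun y hy h => by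
    refine (norm_sub_le_norm_sub_add_norm_sub _ (θ • Pu (U y)) _).trans ?_
    have := (Pu - eI A).le_opNorm (U y)
    rw [unit_norm hU, hy, ContinuousLinearMap.sub_apply] at this
    rw [ContinuousLinearMap.smul_apply, ← smul_sub, norm_smul, hθ, ContinuousLinearMap.mul_apply]
    linarith
  rw [e1] at h3
  linarith [key _ M.norm_Ω h1, key _ (M.norm_psi hU) h2]

end Model
end Crest.Agent.R339
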