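import Crest.Agent.R339.D2.Bip

/-! # Row 339, block D2/Sub: the copy gate -/

set_option autoImplicit false
set_option linter.unusedSectionVars false
open MeasureTheory ProbabilityTheory Filter Topology Complex
open Crest.MathPhysics.SpinGlass

namespace Crest.Agent.R339
variable {E K : Type} [NormedAddCommGroup E] [InnerProductSpace ℂ E]
  [NormedAddCommGroup K] [InnerProductSpace ℂ K] [CompleteSpace K]
namespace Model
variable {M : Model E K} {j : Lp K 2 mu0 →ₗᵢ[ℂ] E} {η : ℝ} {P : ℕ → List (ℝ × (ℕ → ℝ))}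
  {f : Set ℝ → ℕ → E}

/-- copy the spins of `B` to the mediators `μ` -/
theorem exists_cp (hf : M.IsSig j η P f) (h0 : 0 < η) (h1 : η ≤ 1 / 1000) {V : ℝ → K →L[ℂ] K} {a : ℝ}
    (hV : M.Inv j η f V a) {X : Set ℝ} (hX : Ctx η X) (hN : M.Near η V X) {μ B : Set ℝ} (hμ : MeasurableSet μ)
    (hB : MeasurableSet B) (hμa : μ ⊆ Set.Ico η a) (hBX : B ⊆ X) (s : ℝ) :
    ∃ V', M.Inv j η f V' a ∧ M.Near η V' X ∧
      (∀ u ∈ μ, V' u = M.WY ((s : ℂ) • JJ j (B.indicator (M.psiL V))) * V u) ∧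
      (∀ u ∈ B, V' u = M.WZ ((s : ℂ) • JJ j (μ.indicator fun u => star (V u) (M.Y (V u M.Ω)))) * V u) ∧
      (∀ u, u ∉ μ → u ∉ B → V' u = V u) ∧
      ∀ S, Disjoint S μ → Disjoint S B → ∀ u, M.Loc j S (V' u * star (V u)) := by
  have hd : Disjoint μ B := Set.disjoint_left.2 fun u hu hu' =>
    (hX.2.1 (hBX hu')).1.not_gt ((hμa hu).2.trans hV.hi)
  have hμ1 : μ ⊆ X ∪ Set.Ico η a := hμa.trans Set.subset_union_right
  have hμ2 : μ ⊆ X ∪ Set.Ico 0 (2 * η) := fun u hu => Or.inr ⟨h0.le.trans (hμa hu).1, (hμa hu).2.trans hV.hi⟩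
  have i1 := rotS_inv h0 h1 hV hX hN hμ hμ1 (Real.pi / 4)
  have n1 := (rotS_good h0 h1 hV.good hX hN hμ hμ2 (Real.pi / 4)).2
  obtain ⟨i2, n2⟩ := bip_inv hf h0 h1 i1 hX n1 hμ hB hd (fun u hu => Or.inr ⟨h0.le.trans (hμa hu).1, (hμa hu).2⟩)
    (hBX.trans Set.subset_union_left) s
  have r1 : ∀ θ (W : ℝ → K →L[ℂ] K), ∀ u ∈ μ, M.rotS μ θ W u = M.RX θ * W u := fun θ W u hu => by
    rw [rotS, Set.indicator_of_mem hu]
  have r0 : ∀ θ (W : ℝ → K →L[ℂ] K), ∀ u ∉ μ, M.rotS μ θ W u = W u := fun θ W u hu => by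
    rw [rotS, Set.indicator_of_notMem hu, M.RX_zero, one_mul]
  have e1 : B.indicator (M.psiL (M.rotS μ (Real.pi / 4) V)) = B.indicator (M.psiL V) :=
    Set.indicator_congr fun u hu => by rw [psiL, psiL, r0 _ _ u (Set.disjoint_right.1 hd hu)]
  have e2 : μ.indicator (M.psiL (M.rotS μ (Real.pi / 4) V)) = μ.indicator fun u => star (V u) (M.Y (V u M.Ω)) :=
    Set.indicator_congr fun u hu => by
      rw [psiL, r1 _ _ u hu, M.psi_RX, show 2 * (Real.pi / 4) = Real.pi / 2 by ring, Real.cos_pi_div_two,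
        Real.sin_pi_div_two]
      simp
  have a1 : ∀ u ∈ μ, M.rotS μ (-(Real.pi / 4)) (M.bip j μ B s (M.rotS μ (Real.pi / 4) V)) u =
      M.WY ((s : ℂ) • JJ j (B.indicator (M.psiL V))) * V u := fun u hu => by
    rw [r1 _ _ u hu, bip, if_pos hu, e1, r1 _ _ u hu, WY]; simp only [mul_assoc]
  have a2 : ∀ u ∈ B, M.rotS μ (-(Real.pi / 4)) (M.bip j μ B s (M.rotS μ (Real.pi / 4) V)) u =
      M.WZ ((s : ℂ) • JJ j (μ.indicator fun u => star (V u) (M.Y (V u M.Ω)))) * V u := fun u hu => by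
    have hu' := Set.disjoint_right.1 hd hu
    rw [r0 _ _ u hu', bip, if_neg hu', if_pos hu, e2, r0 _ _ u hu']
  have a3 : ∀ u, u ∉ μ → u ∉ B → M.rotS μ (-(Real.pi / 4)) (M.bip j μ B s (M.rotS μ (Real.pi / 4) V)) u = V u :=
    fun u hu hu' => by rw [r0 _ _ u hu, bip, if_neg hu, if_neg hu', r0 _ _ u hu]
  refine ⟨_, rotS_inv h0 h1 i2 hX n2 hμ hμ1 (-(Real.pi / 4)), (rotS_good h0 h1 i2.good hX n2 hμ hμ2 _).2, a1, a2, a3,
    fun S hS hS' u => ?_⟩
  have hu := (Unitary.mem_iff.1 (MGood.mem M hV.good u)).2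
  by_cases h : u ∈ μ
  · rw [a1 u h, mul_assoc, hu, mul_one]
    exact loc_WY (fun v hv => Set.indicator_of_notMem (Set.disjoint_left.1 hS' hv) _) _
  by_cases h' : u ∈ B
  · rw [a2 u h', mul_assoc, hu, mul_one]
    exact loc_WZ (fun v hv => Set.indicator_of_notMem (Set.disjoint_left.1 hS hv) _) _
  · rw [a3 u h h', hu]; exact loc_one _

end Model
end Crest.Agent.R339
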