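import Crest.Agent.R339.D2.Defs

/-! # Row 339, block D2/Sub: the product `m sin e sin x` as a list of sines -/

set_option autoImplicit false
set_option linter.unusedSectionVars false
open MeasureTheory ProbabilityTheory Filter Topology Complex
open Crest.MathPhysics.SpinGlass

namespace Crest.Agent.R339
variable {E K : Type} [NormedAddCommGroup E] [InnerProductSpace ℂ E]
  [NormedAddCommGroup K] [InnerProductSpace ℂ K] [CompleteSpace K]
namespace Model
variable {M : Model E K}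

/-- the fields read by the program -/
def subS (q : ℕ) : Finset (ℕ ⊕ Bool) := (Finset.range (q + 1)).disjSum Finset.univ

theorem sub_dirOf (q : ℕ) (g : ℕ ⊕ Bool → E) (a : ℕ → ℝ) (s t : ℝ) :
    dirOf (subS q) g (Sum.elim a fun b => bif b then t else s) =
      ∑ i ∈ Finset.range (q + 1), ((a i : ℝ) : ℂ) • g (.inl i) + (s : ℂ) • g (.inr false) + (t : ℂ) • g (.inr true) := by
  rw [dirOf, subS, Finset.sum_disjSum, Fintype.sum_bool, add_assoc, add_comm ((s : ℂ) • _)]
  rfl

theorem sub_sin3 {A e x : E} (h1 : (inner ℂ A e).im = 0) (h2 : (inner ℂ A x).im = 0) (h3 : (inner ℂ e x).im = 0) :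
    M.sinW (A + e + x) = (M.sinW A * M.cosW e + M.cosW A * M.sinW e) * M.cosW x +
      (M.cosW A * M.cosW e - M.sinW A * M.sinW e) * M.sinW x ∧
    M.cosW (A + e + x) = (M.cosW A * M.cosW e - M.sinW A * M.sinW e) * M.cosW x -
      (M.sinW A * M.cosW e + M.cosW A * M.sinW e) * M.sinW x := by
  have h : (inner ℂ (A + e) x).im = 0 := by rw [inner_add_left, add_im, h2, h3, add_zero]
  rw [M.sinW_add h, M.cosW_add h, M.sinW_add h1, M.cosW_add h1]
  exact ⟨rfl, rfl⟩

theorem exists_list (Q : List (ℝ × (ℕ → ℝ))) (q : ℕ) (r κ τ : ℝ) : ∃ Tl, ∀ g : ℕ ⊕ Bool → E,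
    (∀ i ∈ subS q, ∀ i' ∈ subS q, (inner ℂ (g i) (g i')).im = 0) →
    M.trF (subS q) g Tl = (r : ℂ) • (M.opS Q q (fun i => g (.inl i)) * M.sinW ((κ : ℂ) • g (.inr false)) *
      M.sinW ((τ : ℂ) • g (.inr true))) ∧
    M.trD (subS q) g Tl (.inr false) = ((r * κ : ℝ) : ℂ) • (M.opS Q q (fun i => g (.inl i)) *
      M.cosW ((κ : ℂ) • g (.inr false)) * M.sinW ((τ : ℂ) • g (.inr true))) ∧
    M.trD (subS q) g Tl (.inr true) = ((r * τ : ℝ) : ℂ) • (M.opS Q q (fun i => g (.inl i)) *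
      M.sinW ((κ : ℂ) • g (.inr false)) * M.cosW ((τ : ℂ) • g (.inr true))) := by
  induction Q with
  | nil => exact ⟨[], fun g _ => by simp [trF, trD, b3_nil]⟩
  | cons t Q ih =>
    obtain ⟨Tl, ih⟩ := ih
    refine ⟨(-(r * t.1 / 4), Sum.elim t.2 fun b => bif b then τ else κ) ::
      (r * t.1 / 4, Sum.elim t.2 fun b => bif b then -τ else κ) ::
      (r * t.1 / 4, Sum.elim t.2 fun b => bif b then τ else -κ) ::
      (-(r * t.1 / 4), Sum.elim t.2 fun b => bif b then -τ else -κ) :: Tl, fun g hg => ?_⟩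
    obtain ⟨h1, h2, h3⟩ := ih g hg
    have hA : ∀ (b : Bool) (s : ℝ), (inner ℂ (∑ i ∈ Finset.range (q + 1), ((t.2 i : ℝ) : ℂ) • g (.inl i))
        ((s : ℂ) • g (.inr b))).im = 0 := fun b s => by
      rw [sum_inner, im_sum]
      exact Finset.sum_eq_zero fun i hi => b5_im_smul (hg _ (Finset.inl_mem_disjSum.2 hi) _
        (Finset.inr_mem_disjSum.2 (Finset.mem_univ _))) _ _
    have key := fun s s' : ℝ => sub_sin3 (M := M) (hA false s) (hA true s') (b5_im_smul
      (hg _ (Finset.inr_mem_disjSum.2 (Finset.mem_univ false)) _ (Finset.inr_mem_disjSum.2 (Finset.mem_univ true))) s s')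
    simp only [trF, trD] at h1 h2 h3
    simp only [trF, trD, List.map_cons, List.sum_cons, h1, h2, h3, sub_dirOf, (key _ _).1, (key _ _).2]
    simp only [b3_cons, Sum.elim_inr, cond_true, cond_false, ofReal_neg, neg_smul, M.sinW_neg, M.cosW_neg, add_mul, sub_mul, mul_neg,
      neg_mul, smul_mul_assoc]
    push_cast
    refine ⟨?_, ?_, ?_⟩ <;> module

end Model
end Crest.Agent.R339
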